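import Vale.Agent.Lib.P317.Paving

/-!
# Common bases when all `(r - c)`-subsets of `M₂` are independent

From every base of `M₁` one reaches a common base by at most `c ^ 2 + c - 1` exchanges inside the
bases of `M₁`.  Hence `|B(M₁)| ≤ (1 + r (n - r)) ^ (c ^ 2 + c - 1) · |B(M₁) ∩ B(M₂)|`.
-/

open Finset

namespace Vale.Agent.Lib.P317

variable {n : ℕ}

/-- The rank as a natural number. -/
noncomputable def gpR (M : Matroid (Fin n)) (X : Set (Fin n)) : ℕ := (M.eRk X).toNat

theorem gp_ne_top (M : Matroid (Fin n)) (X : Set (Fin n)) : M.eRk X ≠ ⊤ :=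
  (M.isRkFinite_set X).eRk_lt_top.ne

theorem gp_R_insert_of_not (M : Matroid (Fin n)) (hE : M.E = Set.univ) (X : Set (Fin n)) {f : Fin n}
    (hf : f ∉ M.closure X) : gpR M (insert f X) = gpR M X + 1 := by
  unfold gpR
  rw [Matroid.eRk_insert_eq_add_one ⟨by rw [hE]; exact Set.mem_univ _, hf⟩,
    ENat.toNat_add (gp_ne_top M X) (by simp)]
  simp

theorem gp_R_insert_of_mem (M : Matroid (Fin n)) (X : Set (Fin n)) {f : Fin n}
    (hf : f ∈ M.closure X) : gpR M (insert f X) = gpR M X := by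
  unfold gpR
  rw [← Matroid.eRk_closure_eq M (insert f X), Matroid.closure_insert_eq_of_mem_closure hf,
    Matroid.eRk_closure_eq]

theorem gp_R_mono (M : Matroid (Fin n)) {X Y : Set (Fin n)} (h : X ⊆ Y) : gpR M X ≤ gpR M Y :=
  ENat.toNat_le_toNat (M.eRk_mono h) (gp_ne_top M Y)

theorem gp_R_indep (M : Matroid (Fin n)) (I : Finset (Fin n)) (h : M.Indep (I : Set (Fin n))) :
    gpR M (I : Set (Fin n)) = I.card := by
  unfold gpR
  rw [h.eRk_eq_encard, Set.encard_coe_eq_coe_finsetCard]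
  simp

theorem gp_R_le_card (M : Matroid (Fin n)) (I : Finset (Fin n)) :
    gpR M (I : Set (Fin n)) ≤ I.card := by
  have h := ENat.toNat_le_toNat (M.eRk_le_encard (I : Set (Fin n)))
    (by rw [Set.encard_coe_eq_coe_finsetCard]; simp)
  rw [Set.encard_coe_eq_coe_finsetCard] at h
  simpa [gpR] using h

theorem gp_indep_of_R (M : Matroid (Fin n)) (I : Finset (Fin n))
    (h : I.card ≤ gpR M (I : Set (Fin n))) : M.Indep (I : Set (Fin n)) := by
  rw [Matroid.indep_iff_eRk_eq_encard]
  apply le_antisymm (M.eRk_le_encard _)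
  rw [Set.encard_coe_eq_coe_finsetCard, ← ENat.coe_toNat (gp_ne_top M (I : Set (Fin n)))]
  exact_mod_cast h

theorem gp_R_closure (M : Matroid (Fin n)) (X : Set (Fin n)) : gpR M (M.closure X) = gpR M X := by
  unfold gpR
  rw [Matroid.eRk_closure_eq]

open Classical in
/-- The coloops of `M | B` outside `D`. -/
noncomputable def gpCo (M : Matroid (Fin n)) (B D : Finset (Fin n)) : Finset (Fin n) :=
  B.filter (fun x => x ∉ D ∧ x ∉ M.closure ((B.erase x : Finset (Fin n)) : Set (Fin n)))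

/-- The exchange step. -/
theorem gp_step (M₁ M₂ : Matroid (Fin n)) (hE₂ : M₂.E = Set.univ) {r : ℕ} (hr₁ : HasRank M₁ r)
    (hr₂ : HasRank M₂ r) (B D : Finset (Fin n))
    (hB₁ : M₁.IsBase (B : Set (Fin n))) (hB₂ : ¬ M₂.Indep (B : Set (Fin n)))
    (hD₁ : M₁.IsBase (D : Set (Fin n))) (hD₂ : M₂.IsBase (D : Set (Fin n))) :
    ∃ e ∈ B, ∃ f, f ∉ B ∧ M₁.IsBase ((insert f (B.erase e) : Finset (Fin n)) : Set (Fin n)) ∧
      (gpR M₂ (B : Set (Fin n)) < gpR M₂ ((insert f (B.erase e) : Finset (Fin n)) : Set (Fin n)) ∨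
        (gpR M₂ ((insert f (B.erase e) : Finset (Fin n)) : Set (Fin n)) = gpR M₂ (B : Set (Fin n)) ∧
          (gpCo M₂ (insert f (B.erase e)) D).card < (gpCo M₂ B D).card)) := by
  classical
  have hBc := hr₁ B hB₁
  have hDc := hr₂ D hD₂
  have hsubE : ∀ X : Set (Fin n), X ⊆ M₂.E := fun X => by rw [hE₂]; exact Set.subset_univ _
  have hRB : gpR M₂ (B : Set (Fin n)) < r := by
    by_contra hge
    exact hB₂ (gp_indep_of_R M₂ B (by omega))
  obtain ⟨f, hfD, hfcl⟩ : ∃ f ∈ D, f ∉ M₂.closure (B : Set (Fin n)) := by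
    by_contra hall
    push_neg at hall
    have h1 : (D : Set (Fin n)) ⊆ M₂.closure (B : Set (Fin n)) := fun x hx => hall x (Finset.mem_coe.1 hx)
    have h2 := gp_R_mono M₂ h1
    rw [gp_R_closure, gp_R_indep M₂ D hD₂.indep, hDc] at h2
    omega
  have hfB : f ∉ B := fun h => hfcl (M₂.subset_closure _ (hsubE _) (Finset.mem_coe.2 h))
  obtain ⟨e, he, hbase⟩ := pv_rev_exch M₁ hB₁ hD₁ (f := f) ⟨Finset.mem_coe.2 hfD, fun h => hfB (Finset.mem_coe.1 h)⟩
  have heB : e ∈ B := Finset.mem_coe.1 he.1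
  have heD : e ∉ D := fun h => he.2 (Finset.mem_coe.2 h)
  have hcoe : ((insert f (B.erase e) : Finset (Fin n)) : Set (Fin n)) = insert f ((B : Set (Fin n)) \ {e}) := by
    rw [Finset.coe_insert, Finset.coe_erase]
  have hcoe2 : ((insert f (B.erase e) : Finset (Fin n)) : Set (Fin n)) =
      insert f ((B.erase e : Finset (Fin n)) : Set (Fin n)) := by
    rw [Finset.coe_insert]
  have hB_ins : (B : Set (Fin n)) = insert e ((B.erase e : Finset (Fin n)) : Set (Fin n)) := by
    rw [← Finset.coe_insert, Finset.insert_erase heB]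
  have hfcl' : f ∉ M₂.closure ((B.erase e : Finset (Fin n)) : Set (Fin n)) := fun h =>
    hfcl (M₂.closure_subset_closure (Finset.coe_subset.2 (Finset.erase_subset _ _)) h)
  have hRnew : gpR M₂ ((insert f (B.erase e) : Finset (Fin n)) : Set (Fin n)) =
      gpR M₂ ((B.erase e : Finset (Fin n)) : Set (Fin n)) + 1 := by
    rw [hcoe2]
    exact gp_R_insert_of_not M₂ hE₂ _ hfcl'
  refine ⟨e, heB, f, hfB, by rw [hcoe]; exact hbase, ?_⟩
  by_cases hecl : e ∈ M₂.closure ((B.erase e : Finset (Fin n)) : Set (Fin n))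
  · left
    have h1 : gpR M₂ (B : Set (Fin n)) = gpR M₂ ((B.erase e : Finset (Fin n)) : Set (Fin n)) := by
      conv_lhs => rw [hB_ins]
      exact gp_R_insert_of_mem M₂ _ hecl
    omega
  · right
    have h1 : gpR M₂ (B : Set (Fin n)) = gpR M₂ ((B.erase e : Finset (Fin n)) : Set (Fin n)) + 1 := by
      conv_lhs => rw [hB_ins]
      exact gp_R_insert_of_not M₂ hE₂ _ hecl
    refine ⟨by omega, Finset.card_lt_card ?_⟩
    rw [Finset.ssubset_iff_of_subset]
    · refine ⟨e, Finset.mem_filter.2 ⟨heB, heD, hecl⟩, ?_⟩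
      intro h
      have h2 := (Finset.mem_filter.1 h).1
      rcases Finset.mem_insert.1 h2 with h3 | h3
      · exact hfB (h3 ▸ heB)
      · exact (Finset.mem_erase.1 h3).1 rfl
    · intro x hx
      obtain ⟨hxB', hxD, hxcl⟩ := Finset.mem_filter.1 hx
      have hxf : x ≠ f := fun h => hxD (h ▸ hfD)
      have hxBe : x ∈ B.erase e := by
        rcases Finset.mem_insert.1 hxB' with h | h
        · exact absurd h hxf
        · exact h
      have hxB : x ∈ B := Finset.mem_of_mem_erase hxBe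
      have hxe : x ≠ e := (Finset.mem_erase.1 hxBe).1
      refine Finset.mem_filter.2 ⟨hxB, hxD, ?_⟩
      intro hcl
      obtain ⟨X, hX⟩ : ∃ X : Finset (Fin n), X = (B.erase x).erase e := ⟨_, rfl⟩
      have hins1 : ((B.erase x : Finset (Fin n)) : Set (Fin n)) = insert e (X : Set (Fin n)) := by
        rw [hX, ← Finset.coe_insert, Finset.insert_erase]
        exact Finset.mem_erase.2 ⟨hxe.symm, heB⟩
      rw [hins1] at hcl
      by_cases hxX : x ∈ M₂.closure (X : Set (Fin n))
      · apply hxcl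
        refine M₂.closure_subset_closure ?_ hxX
        apply Finset.coe_subset.2
        intro y hy
        rw [hX] at hy
        have hy1 := Finset.mem_erase.1 hy
        have hy2 := Finset.mem_erase.1 hy1.2
        refine Finset.mem_erase.2 ⟨hy2.1, Finset.mem_insert_of_mem (Finset.mem_erase.2 ⟨hy1.1, hy2.2⟩)⟩
      · have hex := Matroid.closure_exchange (M := M₂) (e := x) (f := e) (X := (X : Set (Fin n))) ⟨hcl, hxX⟩
        apply hecl
        have hins2 : ((B.erase e : Finset (Fin n)) : Set (Fin n)) = insert x (X : Set (Fin n)) := by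
          rw [hX, ← Finset.coe_insert, Finset.erase_right_comm, Finset.insert_erase hxBe]
        rw [hins2]
        exact hex.1

/-- In a dependent `r`-set there are fewer than `c` coloops. -/
theorem gp_co_bound (M₂ : Matroid (Fin n)) (hE₂ : M₂.E = Set.univ) {r c : ℕ} (hcr : c ≤ r)
    (hind : ∀ I : Finset (Fin n), I.card + c = r → M₂.Indep (I : Set (Fin n)))
    (B D : Finset (Fin n)) (hBc : B.card = r) (hdep : ¬ M₂.Indep (B : Set (Fin n))) :
    (gpCo M₂ B D).card + 1 ≤ c := by
  classical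
  by_contra hcon
  have hge : c ≤ (gpCo M₂ B D).card := by omega
  obtain ⟨Co, hCo⟩ : ∃ Co, Co = gpCo M₂ B D := ⟨_, rfl⟩
  rw [← hCo] at hge
  have hCoB : Co ⊆ B := by
    rw [hCo]
    exact Finset.filter_subset _ _
  have hW : (B \ Co).card ≤ r - c := by
    rw [Finset.card_sdiff_of_subset hCoB, hBc]
    omega
  obtain ⟨I, hI1, hI2, hI3⟩ := Finset.exists_subsuperset_card_eq (Finset.sdiff_subset (s := B) (t := Co)) hW
    (by rw [hBc]; omega)
  have hIi := hind I (by omega)
  have hWi : M₂.Indep ((B \ Co : Finset (Fin n)) : Set (Fin n)) := hIi.subset (Finset.coe_subset.2 hI1)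
  have hall : ∀ S : Finset (Fin n), S ⊆ Co → M₂.Indep (((B \ Co) ∪ S : Finset (Fin n)) : Set (Fin n)) := by
    intro S
    induction S using Finset.induction_on with
    | empty =>
      intro _
      simpa using hWi
    | insert x S hxS ih =>
      intro hsub
      have hxCo : x ∈ Co := hsub (Finset.mem_insert_self _ _)
      have hi := ih (fun y hy => hsub (Finset.mem_insert_of_mem hy))
      have hxfilter := hxCo
      rw [hCo] at hxfilter
      obtain ⟨hxB, _, hxcl⟩ := Finset.mem_filter.1 hxfilter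
      have hY : (((B \ Co) ∪ S : Finset (Fin n)) : Set (Fin n)) ⊆ ((B.erase x : Finset (Fin n)) : Set (Fin n)) := by
        apply Finset.coe_subset.2
        intro y hy
        rcases Finset.mem_union.1 hy with h | h
        · have h' := Finset.mem_sdiff.1 h
          exact Finset.mem_erase.2 ⟨fun e => h'.2 (e ▸ hxCo), h'.1⟩
        · exact Finset.mem_erase.2 ⟨fun e => hxS (e ▸ h), hCoB ((fun y hy => hsub (Finset.mem_insert_of_mem hy)) y h)⟩
      have hins : (((B \ Co) ∪ insert x S : Finset (Fin n)) : Set (Fin n)) =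
          insert x (((B \ Co) ∪ S : Finset (Fin n)) : Set (Fin n)) := by
        rw [Finset.union_insert, Finset.coe_insert]
      rw [hins, hi.insert_indep_iff]
      left
      refine ⟨by rw [hE₂]; exact Set.mem_univ _, fun hm => hxcl ?_⟩
      exact M₂.closure_subset_closure hY hm
  have := hall Co (Finset.Subset.refl _)
  rw [Finset.sdiff_union_of_subset hCoB] at this
  exact hdep this

/-- The lower bound on the rank. -/
theorem gp_R_lower (M₂ : Matroid (Fin n)) {r c : ℕ} (hcr : c ≤ r)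
    (hind : ∀ I : Finset (Fin n), I.card + c = r → M₂.Indep (I : Set (Fin n)))
    (B : Finset (Fin n)) (hBc : B.card = r) : r - c ≤ gpR M₂ (B : Set (Fin n)) := by
  obtain ⟨I, hI1, hI2⟩ := Finset.exists_subset_card_eq (s := B) (n := r - c) (by omega)
  have hi := hind I (by omega)
  have h1 := gp_R_indep M₂ I hi
  have h2 := gp_R_mono M₂ (Finset.coe_subset.2 hI1)
  omega

/-- Sets at exchange distance at most `k` from a common base. -/
noncomputable def gpS (M₁ M₂ : Matroid (Fin n)) : ℕ → Finset (Finset (Fin n))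
  | 0 => commonBases M₁ M₂
  | k + 1 => gpS M₁ M₂ k ∪ (gpS M₁ M₂ k).biUnion (fun D =>
      (D ×ˢ Dᶜ).image (fun p : Fin n × Fin n => insert p.2 (D.erase p.1)))

theorem gp_S_card_r (M₁ M₂ : Matroid (Fin n)) {r : ℕ} (hr₂ : HasRank M₂ r) (k : ℕ) :
    ∀ D ∈ gpS M₁ M₂ k, D.card = r := by
  classical
  induction k with
  | zero =>
    intro D hD
    have hD' : D ∈ commonBases M₁ M₂ := hD
    unfold commonBases at hD'
    exact hr₂ D (Finset.mem_filter.1 hD').2.2
  | succ k ih =>
    intro D hD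
    rcases Finset.mem_union.1 hD with h | h
    · exact ih D h
    · obtain ⟨D', hD', himg⟩ := Finset.mem_biUnion.1 h
      obtain ⟨p, hp, rfl⟩ := Finset.mem_image.1 himg
      obtain ⟨hp1, hp2⟩ := Finset.mem_product.1 hp
      have hp2' : p.2 ∉ D' := Finset.mem_compl.1 hp2
      have hne : p.2 ∉ D'.erase p.1 := fun h => hp2' (Finset.mem_of_mem_erase h)
      rw [Finset.card_insert_of_notMem hne, Finset.card_erase_of_mem hp1, ih D' hD']
      have := Finset.card_pos.2 ⟨_, hp1⟩
      rw [ih D' hD'] at this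
      omega

theorem gp_S_card (M₁ M₂ : Matroid (Fin n)) {r : ℕ} (hr₂ : HasRank M₂ r) (k : ℕ) :
    (gpS M₁ M₂ k).card ≤ (1 + r * (n - r)) ^ k * (commonBases M₁ M₂).card := by
  classical
  induction k with
  | zero => simp [gpS]
  | succ k ih =>
    have hcard : ((gpS M₁ M₂ k).biUnion (fun D =>
        (D ×ˢ Dᶜ).image (fun p : Fin n × Fin n => insert p.2 (D.erase p.1)))).card ≤
        (gpS M₁ M₂ k).card * (r * (n - r)) := by
      refine Finset.card_biUnion_le_card_mul _ _ _ (fun D' hD'm => ?_)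
      have hc := gp_S_card_r M₁ M₂ hr₂ k D' hD'm
      refine Finset.card_image_le.trans ?_
      rw [Finset.card_product, Finset.card_compl, Fintype.card_fin, hc]
    have h1 : (gpS M₁ M₂ (k + 1)).card ≤ (gpS M₁ M₂ k).card + (gpS M₁ M₂ k).card * (r * (n - r)) :=
      (Finset.card_union_le _ _).trans (Nat.add_le_add_left hcard _)
    calc (gpS M₁ M₂ (k + 1)).card ≤ (1 + r * (n - r)) * (gpS M₁ M₂ k).card := by
          rw [add_mul, one_mul, mul_comm (r * (n - r))]
          exact h1
      _ ≤ (1 + r * (n - r)) * ((1 + r * (n - r)) ^ k * (commonBases M₁ M₂).card) :=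
          Nat.mul_le_mul_left _ ih
      _ = _ := by rw [pow_succ]; ring

theorem gp_S_zero_sub (M₁ M₂ : Matroid (Fin n)) (k : ℕ) : commonBases M₁ M₂ ⊆ gpS M₁ M₂ k := by
  induction k with
  | zero => exact Finset.Subset.refl _
  | succ k ih => exact ih.trans Finset.subset_union_left

theorem gp_reach (M₁ M₂ : Matroid (Fin n)) (hE₂ : M₂.E = Set.univ) {r c : ℕ} (hc1 : 1 ≤ c) (hcr : c ≤ r)
    (hr₁ : HasRank M₁ r) (hr₂ : HasRank M₂ r)
    (hind : ∀ I : Finset (Fin n), I.card + c = r → M₂.Indep (I : Set (Fin n)))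
    (D : Finset (Fin n)) (hD₁ : M₁.IsBase (D : Set (Fin n))) (hD₂ : M₂.IsBase (D : Set (Fin n))) (m : ℕ) :
    ∀ B : Finset (Fin n), M₁.IsBase (B : Set (Fin n)) →
      (¬ M₂.Indep (B : Set (Fin n)) →
        c * (r - gpR M₂ (B : Set (Fin n))) + (gpCo M₂ B D).card ≤ m) →
      B ∈ gpS M₁ M₂ m := by
  classical
  have hcommon : ∀ B : Finset (Fin n), M₁.IsBase (B : Set (Fin n)) → M₂.Indep (B : Set (Fin n)) →
      ∀ k, B ∈ gpS M₁ M₂ k := by
    intro B h1 h2 k
    apply gp_S_zero_sub M₁ M₂ k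
    exact Finset.mem_filter.2 ⟨Finset.mem_univ _, h1, pv_base_of_card M₂ hr₂ B h2 (hr₁ B h1)⟩
  have hRlt : ∀ B : Finset (Fin n), B.card = r → ¬ M₂.Indep (B : Set (Fin n)) →
      gpR M₂ (B : Set (Fin n)) < r := by
    intro B hc hn
    by_contra hge
    exact hn (gp_indep_of_R M₂ B (by omega))
  induction m with
  | zero =>
    intro B h1 hB
    by_cases h2 : M₂.Indep (B : Set (Fin n))
    · exact hcommon B h1 h2 0
    · exfalso
      have h3 := hB h2
      have h4 := hRlt B (hr₁ B h1) h2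
      have h5 : c * (r - gpR M₂ (B : Set (Fin n))) ≥ 1 * 1 :=
        Nat.mul_le_mul hc1 (by omega)
      omega
  | succ m ih =>
    intro B h1 hB
    by_cases h2 : M₂.Indep (B : Set (Fin n))
    · exact hcommon B h1 h2 _
    · obtain ⟨e, he, f, hf, hB'1, hstep⟩ := gp_step M₁ M₂ hE₂ hr₁ hr₂ B D h1 h2 hD₁ hD₂
      have hB'mem : insert f (B.erase e) ∈ gpS M₁ M₂ m := by
        apply ih _ hB'1
        intro hdep
        have hcB' := hr₁ _ hB'1
        have hco := gp_co_bound M₂ hE₂ hcr hind _ D hcB' hdep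
        have hRlt' := hRlt _ hcB' hdep
        have hmu := hB h2
        rcases hstep with hgood | ⟨hsame, hless⟩
        · obtain ⟨t, ht⟩ : ∃ t, r - gpR M₂ (B : Set (Fin n)) = t + 1 := ⟨r - gpR M₂ (B : Set (Fin n)) - 1, by omega⟩
          have h5 : r - gpR M₂ ((insert f (B.erase e) : Finset (Fin n)) : Set (Fin n)) ≤ t := by omega
          have h6 := Nat.mul_le_mul_left c h5
          rw [ht, Nat.mul_add, Nat.mul_one] at hmu
          omega
        · rw [hsame]
          omega
      apply Finset.mem_union_right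
      refine Finset.mem_biUnion.2 ⟨_, hB'mem, Finset.mem_image.2 ⟨(f, e), ?_, ?_⟩⟩
      · refine Finset.mem_product.2 ⟨Finset.mem_insert_self _ _, ?_⟩
        simp only [Finset.mem_compl, Finset.mem_insert, Finset.mem_erase, not_or, not_and]
        refine ⟨?_, fun h => absurd rfl h⟩
        rintro rfl
        exact hf he
      · have h0 : f ∉ B.erase e := fun h => hf (Finset.mem_of_mem_erase h)
        show insert e ((insert f (B.erase e)).erase f) = B
        rw [Finset.erase_insert h0, Finset.insert_erase he]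

/-- Main theorem.  If all bases of `M₁`, `M₂` have `r` elements, all `(r - c)`-subsets of the ground
set are independent in `M₂` and there is a common base, then
`|B(M₁)| ≤ (1 + r (n - r)) ^ (c ^ 2 + c - 1) · |B(M₁) ∩ B(M₂)|`. -/
theorem card_bases_le_general (M₁ M₂ : Matroid (Fin n)) (hE₂ : M₂.E = Set.univ) {r c : ℕ}
    (hc1 : 1 ≤ c) (hcr : c ≤ r) (hr₁ : HasRank M₁ r) (hr₂ : HasRank M₂ r)
    (hind : ∀ I : Finset (Fin n), I.card + c = r → M₂.Indep (I : Set (Fin n)))
    (hne : (commonBases M₁ M₂).Nonempty) :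
    (basesOf M₁).card ≤ (1 + r * (n - r)) ^ (c * c + c - 1) * (commonBases M₁ M₂).card := by
  classical
  obtain ⟨D, hD⟩ := hne
  have hD' := (Finset.mem_filter.1 hD).2
  refine le_trans (Finset.card_le_card ?_) (gp_S_card M₁ M₂ hr₂ (c * c + c - 1))
  intro B hB
  have hB1 : M₁.IsBase (B : Set (Fin n)) := (Finset.mem_filter.1 hB).2
  apply gp_reach M₁ M₂ hE₂ hc1 hcr hr₁ hr₂ hind D hD'.1 hD'.2 _ B hB1
  intro hdep
  have hBc := hr₁ B hB1
  have hco := gp_co_bound M₂ hE₂ hcr hind B D hBc hdep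
  have hlow := gp_R_lower M₂ hcr hind B hBc
  have h5 : r - gpR M₂ (B : Set (Fin n)) ≤ c := by omega
  have h6 := Nat.mul_le_mul_left c h5
  omega

end Vale.Agent.Lib.P317
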