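import Vale.Agent.Lib.P317.Paving

/-!
# Stable sets in the basis exchange graph have density at most `1/2`

A family of `r`-sets with both exchange properties and at least two members: any subfamily whose
members pairwise differ in at least two elements contains at most half of the family.  Hence a
sparse paving `M₂` keeps at least half of the bases of any `M₁` with at least two bases.
-/

open Finset

namespace Vale.Agent.Lib.P317

variable {α : Type*} [DecidableEq α]

/-- A family of sets with the two exchange properties of the bases of a matroid. -/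
structure ExFam (F : Finset (Finset α)) : Prop where
  card : ∀ A ∈ F, ∀ B ∈ F, A.card = B.card
  ex1 : ∀ A ∈ F, ∀ B ∈ F, ∀ a ∈ A, a ∉ B → ∃ b ∈ B, b ∉ A ∧ insert b (A.erase a) ∈ F
  ex2 : ∀ A ∈ F, ∀ B ∈ F, ∀ b ∈ B, b ∉ A → ∃ a ∈ A, a ∉ B ∧ insert b (A.erase a) ∈ F

theorem hf_with {F : Finset (Finset α)} (h : ExFam F) (e : α) :
    ExFam (F.filter (fun A => e ∈ A)) := by
  refine ⟨?_, ?_, ?_⟩
  · intro A hA B hB
    exact h.card A (Finset.mem_filter.1 hA).1 B (Finset.mem_filter.1 hB).1
  · intro A hA B hB a ha haB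
    obtain ⟨hA1, hA2⟩ := Finset.mem_filter.1 hA
    obtain ⟨hB1, hB2⟩ := Finset.mem_filter.1 hB
    obtain ⟨b, hb, hbA, hins⟩ := h.ex1 A hA1 B hB1 a ha haB
    refine ⟨b, hb, hbA, Finset.mem_filter.2 ⟨hins, ?_⟩⟩
    have hne : e ≠ a := fun h' => haB (h' ▸ hB2)
    exact Finset.mem_insert_of_mem (Finset.mem_erase.2 ⟨hne, hA2⟩)
  · intro A hA B hB b hb hbA
    obtain ⟨hA1, hA2⟩ := Finset.mem_filter.1 hA
    obtain ⟨hB1, hB2⟩ := Finset.mem_filter.1 hB
    obtain ⟨a, ha, haB, hins⟩ := h.ex2 A hA1 B hB1 b hb hbA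
    refine ⟨a, ha, haB, Finset.mem_filter.2 ⟨hins, ?_⟩⟩
    have hne : e ≠ a := fun h' => haB (h' ▸ hB2)
    exact Finset.mem_insert_of_mem (Finset.mem_erase.2 ⟨hne, hA2⟩)

theorem hf_without {F : Finset (Finset α)} (h : ExFam F) (e : α) :
    ExFam (F.filter (fun A => e ∉ A)) := by
  refine ⟨?_, ?_, ?_⟩
  · intro A hA B hB
    exact h.card A (Finset.mem_filter.1 hA).1 B (Finset.mem_filter.1 hB).1
  · intro A hA B hB a ha haB
    obtain ⟨hA1, hA2⟩ := Finset.mem_filter.1 hA
    obtain ⟨hB1, hB2⟩ := Finset.mem_filter.1 hB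
    obtain ⟨b, hb, hbA, hins⟩ := h.ex1 A hA1 B hB1 a ha haB
    refine ⟨b, hb, hbA, Finset.mem_filter.2 ⟨hins, ?_⟩⟩
    have hne : e ≠ b := fun h' => hB2 (h' ▸ hb)
    simp only [Finset.mem_insert, Finset.mem_erase, not_or, not_and]
    exact ⟨hne, fun _ => hA2⟩
  · intro A hA B hB b hb hbA
    obtain ⟨hA1, hA2⟩ := Finset.mem_filter.1 hA
    obtain ⟨hB1, hB2⟩ := Finset.mem_filter.1 hB
    obtain ⟨a, ha, haB, hins⟩ := h.ex2 A hA1 B hB1 b hb hbA
    refine ⟨a, ha, haB, Finset.mem_filter.2 ⟨hins, ?_⟩⟩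
    have hne : e ≠ b := fun h' => hB2 (h' ▸ hb)
    simp only [Finset.mem_insert, Finset.mem_erase, not_or, not_and]
    exact ⟨hne, fun _ => hA2⟩

/-- If any two members of `F` differ in at most one element, then a stable family has at most one
member in `F`. -/
theorem hf_clique {F T : Finset (Finset α)}
    (hT : ∀ A ∈ T, ∀ B ∈ T, A ≠ B → 2 ≤ (A \ B).card)
    (hF : ∀ X ∈ F, ∀ Y ∈ F, X ≠ Y → ∃ z, X \ Y ⊆ {z}) (h2 : 2 ≤ F.card) :
    2 * (F ∩ T).card ≤ F.card := by
  have h1 : (F ∩ T).card ≤ 1 := by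
    rw [Finset.card_le_one]
    intro X hX Y hY
    by_contra hne
    obtain ⟨hX1, hX2⟩ := Finset.mem_inter.1 hX
    obtain ⟨hY1, hY2⟩ := Finset.mem_inter.1 hY
    obtain ⟨z, hz⟩ := hF X hX1 Y hY1 hne
    have h3 := hT X hX2 Y hY2 hne
    have h4 := Finset.card_le_card hz
    rw [Finset.card_singleton] at h4
    omega
  omega

theorem hf_half {F : Finset (Finset α)} (h : ExFam F) (h2 : 2 ≤ F.card) {T : Finset (Finset α)}
    (hT : ∀ A ∈ T, ∀ B ∈ T, A ≠ B → 2 ≤ (A \ B).card) :
    2 * (F ∩ T).card ≤ F.card := by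
  induction hm : F.card using Nat.strong_induction_on generalizing F with
  | _ m ih =>
    obtain ⟨A, hA, A', hA', hne⟩ := Finset.one_lt_card.1 (by omega : 1 < F.card)
    obtain ⟨e, heA, heA'⟩ : ∃ e ∈ A, e ∉ A' := by
      by_contra hall
      push_neg at hall
      exact hne (Finset.eq_of_subset_of_card_le hall (by rw [h.card A hA A' hA']))
    have hsplit := Finset.card_filter_add_card_filter_not (s := F) (fun B => e ∈ B)
    have hF1pos : 0 < (F.filter (fun B => e ∈ B)).card :=
      Finset.card_pos.2 ⟨A, Finset.mem_filter.2 ⟨hA, heA⟩⟩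
    have hF0pos : 0 < (F.filter (fun B => e ∉ B)).card :=
      Finset.card_pos.2 ⟨A', Finset.mem_filter.2 ⟨hA', heA'⟩⟩
    by_cases hc0 : 2 ≤ (F.filter (fun B => e ∉ B)).card
    · by_cases hc1 : 2 ≤ (F.filter (fun B => e ∈ B)).card
      · have i1 := ih _ (by omega) (hf_with h e) hc1 rfl
        have i0 := ih _ (by omega) (hf_without h e) hc0 rfl
        have hsplit2 : (F ∩ T).card ≤ (F.filter (fun B => e ∈ B) ∩ T).card +
            (F.filter (fun B => e ∉ B) ∩ T).card := by
          refine le_trans (Finset.card_le_card ?_) (Finset.card_union_le _ _)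
          intro X hX
          obtain ⟨hX1, hX2⟩ := Finset.mem_inter.1 hX
          by_cases hXe : e ∈ X
          · exact Finset.mem_union_left _ (Finset.mem_inter.2 ⟨Finset.mem_filter.2 ⟨hX1, hXe⟩, hX2⟩)
          · exact Finset.mem_union_right _ (Finset.mem_inter.2 ⟨Finset.mem_filter.2 ⟨hX1, hXe⟩, hX2⟩)
        omega
      · -- exactly one member contains `e`
        have hone : (F.filter (fun B => e ∈ B)).card = 1 := by omega
        obtain ⟨B0, hB0⟩ := Finset.card_eq_one.1 hone
        have hB0mem : B0 ∈ F.filter (fun B => e ∈ B) := by rw [hB0]; exact Finset.mem_singleton_self _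
        obtain ⟨hB01, hB02⟩ := Finset.mem_filter.1 hB0mem
        have huniq : ∀ X ∈ F, e ∈ X → X = B0 := by
          intro X hX hXe
          have : X ∈ F.filter (fun B => e ∈ B) := Finset.mem_filter.2 ⟨hX, hXe⟩
          rw [hB0] at this
          exact Finset.mem_singleton.1 this
        have hform : ∀ X ∈ F, e ∉ X → ∃ a ∈ X, B0 = insert e (X.erase a) := by
          intro X hX hXe
          obtain ⟨a, ha, _, hins⟩ := h.ex2 X hX B0 hB01 e hB02 hXe
          exact ⟨a, ha, (huniq _ hins (Finset.mem_insert_self _ _)).symm⟩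
        rw [← hm]
        refine hf_clique hT ?_ h2
        intro X hX Y hY hXY
        by_cases hXe : e ∈ X
        · have hXB := huniq X hX hXe
          have hYe : e ∉ Y := fun hYe => hXY (hXB.trans (huniq Y hY hYe).symm)
          refine ⟨e, fun x hx => ?_⟩
          obtain ⟨a, _, hYB⟩ := hform Y hY hYe
          obtain ⟨hx1, hx2⟩ := Finset.mem_sdiff.1 hx
          rw [hXB, hYB] at hx1
          rcases Finset.mem_insert.1 hx1 with h' | h'
          · exact Finset.mem_singleton.2 h'
          · exact absurd (Finset.mem_of_mem_erase h') hx2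
        · obtain ⟨a, _, hXB⟩ := hform X hX hXe
          refine ⟨a, fun x hx => ?_⟩
          obtain ⟨hx1, hx2⟩ := Finset.mem_sdiff.1 hx
          by_contra hxa
          have hxa' : x ≠ a := fun h' => hxa (Finset.mem_singleton.2 h')
          have hxB0 : x ∈ B0 := by
            rw [hXB]
            exact Finset.mem_insert_of_mem (Finset.mem_erase.2 ⟨hxa', hx1⟩)
          by_cases hYe : e ∈ Y
          · rw [huniq Y hY hYe] at hx2
            exact hx2 hxB0
          · obtain ⟨a', _, hYB⟩ := hform Y hY hYe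
            rw [hYB] at hxB0
            rcases Finset.mem_insert.1 hxB0 with h' | h'
            · exact hXe (h' ▸ hx1)
            · exact hx2 (Finset.mem_of_mem_erase h')
    · -- exactly one member avoids `e`
      have hone : (F.filter (fun B => e ∉ B)).card = 1 := by omega
      obtain ⟨B0, hB0⟩ := Finset.card_eq_one.1 hone
      have hB0mem : B0 ∈ F.filter (fun B => e ∉ B) := by rw [hB0]; exact Finset.mem_singleton_self _
      obtain ⟨hB01, hB02⟩ := Finset.mem_filter.1 hB0mem
      have huniq : ∀ X ∈ F, e ∉ X → X = B0 := by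
        intro X hX hXe
        have : X ∈ F.filter (fun B => e ∉ B) := Finset.mem_filter.2 ⟨hX, hXe⟩
        rw [hB0] at this
        exact Finset.mem_singleton.1 this
      have hform : ∀ X ∈ F, e ∈ X → ∃ b, B0 = insert b (X.erase e) := by
        intro X hX hXe
        obtain ⟨b, hb, _, hins⟩ := h.ex1 X hX B0 hB01 e hXe hB02
        refine ⟨b, (huniq _ hins ?_).symm⟩
        simp only [Finset.mem_insert, Finset.mem_erase, not_or, not_and]
        exact ⟨fun h' => hB02 (h' ▸ hb), fun h' => absurd rfl h'⟩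
      rw [← hm]
      refine hf_clique hT ?_ h2
      intro X hX Y hY hXY
      by_cases hYe : e ∈ Y
      · obtain ⟨b, hYB⟩ := hform Y hY hYe
        refine ⟨b, fun x hx => ?_⟩
        obtain ⟨hx1, hx2⟩ := Finset.mem_sdiff.1 hx
        have hxe : x ≠ e := fun h' => hx2 (h' ▸ hYe)
        have hxB0 : x ∈ B0 := by
          by_cases hXe : e ∈ X
          · obtain ⟨b', hXB⟩ := hform X hX hXe
            rw [hXB]
            exact Finset.mem_insert_of_mem (Finset.mem_erase.2 ⟨hxe, hx1⟩)
          · rw [← huniq X hX hXe]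
            exact hx1
        rw [hYB] at hxB0
        rcases Finset.mem_insert.1 hxB0 with h' | h'
        · exact Finset.mem_singleton.2 h'
        · exact absurd (Finset.mem_of_mem_erase h') hx2
      · have hYB := huniq Y hY hYe
        have hXe : e ∈ X := by
          by_contra hXe
          exact hXY ((huniq X hX hXe).trans hYB.symm)
        obtain ⟨b, hXB⟩ := hform X hX hXe
        refine ⟨e, fun x hx => ?_⟩
        obtain ⟨hx1, hx2⟩ := Finset.mem_sdiff.1 hx
        by_contra hxe
        have hxe' : x ≠ e := fun h' => hxe (Finset.mem_singleton.2 h')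
        apply hx2
        rw [hYB, hXB]
        exact Finset.mem_insert_of_mem (Finset.mem_erase.2 ⟨hxe', hx1⟩)

variable {n : ℕ}

/-- `M₂` is sparse paving of rank `r`: two non-bases among the `r`-sets differ in at least two
elements. -/
def IsSparsePaving (M : Matroid (Fin n)) (r : ℕ) : Prop :=
  ∀ A B : Finset (Fin n), A.card = r → B.card = r → ¬ M.IsBase (A : Set (Fin n)) →
    ¬ M.IsBase (B : Set (Fin n)) → A ≠ B → 2 ≤ (A \ B).card

theorem hf_bases (M : Matroid (Fin n)) {r : ℕ} (hr : HasRank M r) : ExFam (basesOf M) := by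
  classical
  have hmem : ∀ B : Finset (Fin n), B ∈ basesOf M ↔ M.IsBase (B : Set (Fin n)) := by
    intro B
    unfold basesOf
    simp
  refine ⟨?_, ?_, ?_⟩
  · intro A hA B hB
    rw [hr A ((hmem A).1 hA), hr B ((hmem B).1 hB)]
  · intro A hA B hB a ha haB
    obtain ⟨b, hb, hbase⟩ := ((hmem A).1 hA).exchange ((hmem B).1 hB)
      (e := a) ⟨Finset.mem_coe.2 ha, fun h => haB (Finset.mem_coe.1 h)⟩
    refine ⟨b, Finset.mem_coe.1 hb.1, fun h => hb.2 (Finset.mem_coe.2 h), (hmem _).2 ?_⟩
    rw [Finset.coe_insert, Finset.coe_erase]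
    exact hbase
  · intro A hA B hB b hb hbA
    obtain ⟨a, ha, hbase⟩ := pv_rev_exch M ((hmem A).1 hA) ((hmem B).1 hB)
      (f := b) ⟨Finset.mem_coe.2 hb, fun h => hbA (Finset.mem_coe.1 h)⟩
    refine ⟨a, Finset.mem_coe.1 ha.1, fun h => ha.2 (Finset.mem_coe.2 h), (hmem _).2 ?_⟩
    rw [Finset.coe_insert, Finset.coe_erase]
    exact hbase

/-- If `M₂` is sparse paving and `M₁` has at least two bases, at least half of the bases of `M₁` are
bases of `M₂`. -/
theorem card_bases_le_two_mul (M₁ M₂ : Matroid (Fin n)) {r : ℕ} (hr₁ : HasRank M₁ r)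
    (hsp : IsSparsePaving M₂ r) (h2 : 2 ≤ (basesOf M₁).card) :
    (basesOf M₁).card ≤ 2 * (commonBases M₁ M₂).card := by
  classical
  have hmem : ∀ B : Finset (Fin n), B ∈ basesOf M₁ ↔ M₁.IsBase (B : Set (Fin n)) := by
    intro B
    unfold basesOf
    simp
  have hmemc : ∀ B : Finset (Fin n), B ∈ commonBases M₁ M₂ ↔
      M₁.IsBase (B : Set (Fin n)) ∧ M₂.IsBase (B : Set (Fin n)) := by
    intro B
    unfold commonBases
    simp
  obtain ⟨T, hT⟩ : ∃ T : Finset (Finset (Fin n)), T = (basesOf M₁).filter (fun B : Finset (Fin n) => ¬ M₂.IsBase (B : Set (Fin n))) := ⟨_, rfl⟩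
  have hstable : ∀ A ∈ T, ∀ B ∈ T, A ≠ B → 2 ≤ (A \ B).card := by
    intro A hA B hB hne
    rw [hT] at hA hB
    obtain ⟨hA1, hA2⟩ := Finset.mem_filter.1 hA
    obtain ⟨hB1, hB2⟩ := Finset.mem_filter.1 hB
    exact hsp A B (hr₁ A ((hmem A).1 hA1)) (hr₁ B ((hmem B).1 hB1)) hA2 hB2 hne
  have hhalf := hf_half (hf_bases M₁ hr₁) h2 hstable
  have hsub : basesOf M₁ ⊆ commonBases M₁ M₂ ∪ (basesOf M₁ ∩ T) := by
    intro B hB
    by_cases hB2 : M₂.IsBase (B : Set (Fin n))
    · exact Finset.mem_union_left _ ((hmemc B).2 ⟨(hmem B).1 hB, hB2⟩)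
    · refine Finset.mem_union_right _ (Finset.mem_inter.2 ⟨hB, ?_⟩)
      rw [hT]
      exact Finset.mem_filter.2 ⟨hB, hB2⟩
  have h3 := (Finset.card_le_card hsub).trans (Finset.card_union_le _ _)
  omega

end Vale.Agent.Lib.P317
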