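import Mathlib

/-!
# Common bases of a matroid and a paving matroid

If `M₂` is paving of rank `r` and `M₁`, `M₂` have a common base, then the common bases are at least
a `1 / (1 + r (n - r))` fraction of the bases of `M₁`.
-/

open Finset

namespace Vale.Agent.Lib.P317

variable {n : ℕ}

open Classical in
/-- The set of bases of `M`, as a finset of finsets. -/
noncomputable def basesOf (M : Matroid (Fin n)) : Finset (Finset (Fin n)) :=
  univ.filter (fun B => M.IsBase (B : Set (Fin n)))

open Classical in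
/-- The set of common bases of `M₁` and `M₂`. -/
noncomputable def commonBases (M₁ M₂ : Matroid (Fin n)) : Finset (Finset (Fin n)) :=
  univ.filter (fun B => M₁.IsBase (B : Set (Fin n)) ∧ M₂.IsBase (B : Set (Fin n)))

/-- All bases of `M` have `r` elements. -/
def HasRank (M : Matroid (Fin n)) (r : ℕ) : Prop :=
  ∀ B : Finset (Fin n), M.IsBase (B : Set (Fin n)) → B.card = r

/-- `M` is paving of rank `r`: every set of `r - 1` elements is independent (equivalently every
circuit has at least `r` elements). -/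
def IsPaving (M : Matroid (Fin n)) (r : ℕ) : Prop :=
  ∀ I : Finset (Fin n), I.card + 1 = r → M.Indep (I : Set (Fin n))

theorem pv_rev_exch {α : Type*} (M : Matroid α) {B D : Set α} (hB : M.IsBase B) (hD : M.IsBase D)
    {f : α} (hf : f ∈ D \ B) : ∃ e ∈ B \ D, M.IsBase (insert f (B \ {e})) := by
  have hB' : M✶.IsBase (M.E \ B) := hB.compl_isBase_dual
  have hD' : M✶.IsBase (M.E \ D) := hD.compl_isBase_dual
  have hfE : f ∈ M.E := hD.subset_ground hf.1
  obtain ⟨y, hy, hyb⟩ := hB'.exchange hD' (e := f) ⟨⟨hfE, hf.2⟩, fun h => h.2 hf.1⟩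
  have hyB : y ∈ B := by
    by_contra hn
    exact hy.2 ⟨hy.1.1, hn⟩
  refine ⟨y, ⟨hyB, hy.1.2⟩, ?_⟩
  have h := hyb.compl_isBase_of_dual
  convert h using 1
  ext x
  simp only [Set.mem_insert_iff, Set.mem_diff, Set.mem_singleton_iff]
  have hBsub := hB.subset_ground
  constructor
  · rintro (rfl | ⟨hxB, hxy⟩)
    · refine ⟨hfE, ?_⟩
      rintro (h1 | ⟨⟨_, h2⟩, h3⟩)
      · exact hf.2 (h1 ▸ hyB)
      · exact h3 rfl
    · refine ⟨hBsub hxB, ?_⟩
      rintro (h1 | ⟨⟨_, h2⟩, _⟩)
      · exact hxy h1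
      · exact h2 hxB
  · rintro ⟨hxE, hx⟩
    by_cases hxf : x = f
    · exact Or.inl hxf
    · refine Or.inr ⟨?_, ?_⟩
      · by_contra hnB
        exact hx (Or.inr ⟨⟨hxE, hnB⟩, hxf⟩)
      · intro hxy
        exact hx (Or.inl hxy)

theorem pv_base_of_card (M : Matroid (Fin n)) {r : ℕ} (hr : HasRank M r) (I : Finset (Fin n))
    (hI : M.Indep (I : Set (Fin n))) (hc : I.card = r) : M.IsBase (I : Set (Fin n)) := by
  classical
  obtain ⟨B, hB, hsub⟩ := hI.exists_isBase_superset
  have hBf : ((B.toFinite.toFinset : Finset (Fin n)) : Set (Fin n)) = B := by simp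
  have hB' : M.IsBase ((B.toFinite.toFinset : Finset (Fin n)) : Set (Fin n)) := by
    rw [hBf]; exact hB
  have hcard := hr _ hB'
  have hsub' : I ⊆ B.toFinite.toFinset := by
    intro x hx
    simp only [Set.Finite.mem_toFinset]
    exact hsub (Finset.mem_coe.2 hx)
  have heq : I = B.toFinite.toFinset :=
    Finset.eq_of_subset_of_card_le hsub' (by rw [hcard, hc])
  rw [heq]
  exact hB'

/-- The neighbour step. -/
theorem pv_neighbor (M₁ M₂ : Matroid (Fin n)) (hE₂ : M₂.E = Set.univ) {r : ℕ} (hr₁ : HasRank M₁ r)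
    (hr₂ : HasRank M₂ r) (hpav : IsPaving M₂ r) (B D : Finset (Fin n))
    (hB₁ : M₁.IsBase (B : Set (Fin n))) (hB₂ : ¬ M₂.IsBase (B : Set (Fin n)))
    (hD₁ : M₁.IsBase (D : Set (Fin n))) (hD₂ : M₂.IsBase (D : Set (Fin n))) :
    ∃ e ∈ B, ∃ f, f ∉ B ∧ M₁.IsBase ((insert f (B.erase e) : Finset (Fin n)) : Set (Fin n)) ∧
      M₂.IsBase ((insert f (B.erase e) : Finset (Fin n)) : Set (Fin n)) := by
  classical
  have hBc := hr₁ B hB₁
  have hDc := hr₂ D hD₂
  have hBne : B.Nonempty := by
    by_contra hne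
    have hB0 : B = ∅ := Finset.not_nonempty_iff_eq_empty.1 hne
    have hr0 : r = 0 := by rw [← hBc, hB0, Finset.card_empty]
    have hD0 : D = ∅ := Finset.card_eq_zero.1 (by rw [hDc, hr0])
    apply hB₂
    rw [hB0]
    rw [hD0] at hD₂
    exact hD₂
  have hindep : ∀ e ∈ B, M₂.Indep ((B.erase e : Finset (Fin n)) : Set (Fin n)) := by
    intro e he
    apply hpav
    rw [Finset.card_erase_of_mem he, ← hBc]
    have := Finset.card_pos.2 ⟨e, he⟩
    omega
  have hBdep : ¬ M₂.Indep (B : Set (Fin n)) := fun h => hB₂ (pv_base_of_card M₂ hr₂ B h hBc)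
  -- closures
  have hcl : ∀ e ∈ B, M₂.closure (B : Set (Fin n)) ⊆
      M₂.closure ((B.erase e : Finset (Fin n)) : Set (Fin n)) := by
    intro e he
    apply Matroid.closure_subset_closure_of_subset_closure
    intro x hx
    by_cases hxe : x = e
    · subst hxe
      have hI := hindep x he
      have hnot : ¬ M₂.Indep (insert x ((B.erase x : Finset (Fin n)) : Set (Fin n))) := by
        have : insert x ((B.erase x : Finset (Fin n)) : Set (Fin n)) = (B : Set (Fin n)) := by
          rw [← Finset.coe_insert, Finset.insert_erase he]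
        rw [this]
        exact hBdep
      rw [hI.insert_indep_iff] at hnot
      by_contra hncl
      apply hnot
      left
      refine ⟨?_, hncl⟩
      rw [hE₂]
      exact Set.mem_univ _
    · apply M₂.subset_closure _ (by rw [hE₂]; exact Set.subset_univ _)
      exact Finset.mem_coe.2 (Finset.mem_erase.2 ⟨hxe, Finset.mem_coe.1 hx⟩)
  obtain ⟨e0, he0⟩ := hBne
  have hI0 := hindep e0 he0
  have hlt : (B.erase e0).card < D.card := by
    rw [Finset.card_erase_of_mem he0, hBc, hDc]
    have := Finset.card_pos.2 ⟨e0, he0⟩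
    omega
  obtain ⟨f, hfD, hfI, hins⟩ := hI0.augment_finset hD₂.indep hlt
  have hfe0 : f ≠ e0 := by
    rintro rfl
    apply hBdep
    have : insert f ((B.erase f : Finset (Fin n)) : Set (Fin n)) = (B : Set (Fin n)) := by
      rw [← Finset.coe_insert, Finset.insert_erase he0]
    rw [this] at hins
    exact hins
  have hfB : f ∉ B := fun h => hfI (Finset.mem_coe.2 (Finset.mem_erase.2 ⟨hfe0, h⟩))
  have hfcl : f ∉ M₂.closure (B : Set (Fin n)) := by
    intro hmem
    rw [hI0.insert_indep_iff] at hins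
    rcases hins with h | h
    · exact h.2 (hcl e0 he0 hmem)
    · exact hfI h
  obtain ⟨e, he, hbase⟩ := pv_rev_exch M₁ hB₁ hD₁ (f := f) ⟨Finset.mem_coe.2 hfD, fun h => hfB (Finset.mem_coe.1 h)⟩
  have heB : e ∈ B := Finset.mem_coe.1 he.1
  have hcoe : ((insert f (B.erase e) : Finset (Fin n)) : Set (Fin n)) = insert f ((B : Set (Fin n)) \ {e}) := by
    rw [Finset.coe_insert, Finset.coe_erase]
  refine ⟨e, heB, f, hfB, ?_, ?_⟩
  · rw [hcoe]
    exact hbase
  · apply pv_base_of_card M₂ hr₂
    · rw [Finset.coe_insert]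
      rw [(hindep e heB).insert_indep_iff]
      left
      refine ⟨by rw [hE₂]; exact Set.mem_univ _, fun hm => hfcl ?_⟩
      exact M₂.closure_subset_closure (Finset.coe_subset.2 (Finset.erase_subset _ _)) hm
    · rw [Finset.card_insert_of_notMem (fun h => hfB (Finset.mem_of_mem_erase h)),
        Finset.card_erase_of_mem heB, hBc]
      have := Finset.card_pos.2 ⟨e, heB⟩
      omega

/-- Main theorem: if `M₂` is paving of rank `r` and `M₁`, `M₂` have a common base, then
`|B(M₁)| ≤ (1 + r (n - r)) |B(M₁) ∩ B(M₂)|`. -/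
theorem card_bases_le (M₁ M₂ : Matroid (Fin n)) (hE₂ : M₂.E = Set.univ) {r : ℕ}
    (hr₁ : HasRank M₁ r) (hr₂ : HasRank M₂ r) (hpav : IsPaving M₂ r)
    (hne : (commonBases M₁ M₂).Nonempty) :
    (basesOf M₁).card ≤ (1 + r * (n - r)) * (commonBases M₁ M₂).card := by
  classical
  obtain ⟨D, hD⟩ := hne
  have hD' := (Finset.mem_filter.1 hD).2
  set C := commonBases M₁ M₂ with hC
  have hsub : basesOf M₁ ⊆ C ∪ C.biUnion (fun D =>
      (D ×ˢ Dᶜ).image (fun p : Fin n × Fin n => insert p.2 (D.erase p.1))) := by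
    intro B hB
    have hB1 : M₁.IsBase (B : Set (Fin n)) := (Finset.mem_filter.1 hB).2
    by_cases hB2 : M₂.IsBase (B : Set (Fin n))
    · exact Finset.mem_union_left _ (Finset.mem_filter.2 ⟨Finset.mem_univ _, hB1, hB2⟩)
    · apply Finset.mem_union_right
      obtain ⟨e, he, f, hf, h1, h2⟩ := pv_neighbor M₁ M₂ hE₂ hr₁ hr₂ hpav B D hB1 hB2 hD'.1 hD'.2
      refine Finset.mem_biUnion.2 ⟨insert f (B.erase e), Finset.mem_filter.2 ⟨Finset.mem_univ _, h1, h2⟩, ?_⟩
      refine Finset.mem_image.2 ⟨(f, e), ?_, ?_⟩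
      · refine Finset.mem_product.2 ⟨Finset.mem_insert_self _ _, ?_⟩
        simp only [Finset.mem_compl, Finset.mem_insert, Finset.mem_erase, not_or, not_and]
        refine ⟨?_, fun h => absurd rfl h⟩
        rintro rfl
        exact hf he
      · have h0 : f ∉ B.erase e := fun h => hf (Finset.mem_of_mem_erase h)
        show insert e ((insert f (B.erase e)).erase f) = B
        rw [Finset.erase_insert h0, Finset.insert_erase he]
  have hcard : (C.biUnion (fun D =>
      (D ×ˢ Dᶜ).image (fun p : Fin n × Fin n => insert p.2 (D.erase p.1)))).card ≤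
      C.card * (r * (n - r)) := by
    refine Finset.card_biUnion_le_card_mul _ _ _ (fun D' hD'm => ?_)
    have hD2 := (Finset.mem_filter.1 hD'm).2.2
    have hc := hr₂ D' hD2
    refine Finset.card_image_le.trans ?_
    rw [Finset.card_product, Finset.card_compl, Fintype.card_fin, hc]
  calc (basesOf M₁).card ≤ (C ∪ C.biUnion (fun D =>
      (D ×ˢ Dᶜ).image (fun p : Fin n × Fin n => insert p.2 (D.erase p.1)))).card :=
        Finset.card_le_card hsub
    _ ≤ C.card + C.card * (r * (n - r)) := (Finset.card_union_le _ _).trans (Nat.add_le_add_left hcard _)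
    _ = (1 + r * (n - r)) * C.card := by ring

end Vale.Agent.Lib.P317
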